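import Vale.Agent.P100.Defs

open Filter Topology Laplacian InnerProductSpace

namespace Vale.Agent.P100

/-- The second derivative along a line. -/
lemma iterated_two_eq_deriv {E : Type*} [NormedAddCommGroup E] [NormedSpace ℝ E] {f : E → ℝ}
    {x e : E} (hf : ContDiffAt ℝ 2 f x) :
    iteratedFDeriv ℝ 2 f x ![e, e] = deriv (deriv fun t : ℝ => f (x + t • e)) 0 := by
  have hline : ∀ t : ℝ, HasDerivAt (fun t : ℝ => x + t • e) e t := by
    intro t
    have := ((hasDerivAt_id t).smul_const e).const_add x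
    simpa using this
  have hev : ∀ᶠ y in 𝓝 x, ContDiffAt ℝ 2 f y := hf.eventually (by simp)
  have hcont : Tendsto (fun t : ℝ => x + t • e) (𝓝 0) (𝓝 x) := by
    have : ContinuousAt (fun t : ℝ => x + t • e) 0 := (hline 0).continuousAt
    simpa [ContinuousAt] using this
  have hev' : ∀ᶠ t in 𝓝 (0 : ℝ), ContDiffAt ℝ 2 f (x + t • e) := hcont.eventually hev
  have hd1 : (deriv fun t : ℝ => f (x + t • e)) =ᶠ[𝓝 0] fun t => fderiv ℝ f (x + t • e) e := by
    filter_upwards [hev'] with t ht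
    have hdiff : DifferentiableAt ℝ f (x + t • e) := ht.differentiableAt (by norm_num)
    have := hdiff.hasFDerivAt.comp_hasDerivAt t (hline t)
    exact this.deriv
  rw [hd1.deriv_eq]
  have hfd : ContDiffAt ℝ 1 (fderiv ℝ f) x := hf.fderiv_right (by norm_num)
  have hfdd : DifferentiableAt ℝ (fderiv ℝ f) x := hfd.differentiableAt (by norm_num)
  have hcomp : HasDerivAt (fun t : ℝ => fderiv ℝ f (x + t • e)) (fderiv ℝ (fderiv ℝ f) x e) 0 := by
    have h0 : HasDerivAt (fun t : ℝ => x + t • e) e 0 := hline 0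
    have hx : x + (0 : ℝ) • e = x := by simp
    have h1 : HasFDerivAt (fderiv ℝ f) (fderiv ℝ (fderiv ℝ f) x) (x + (0 : ℝ) • e) := by
      rw [hx]; exact hfdd.hasFDerivAt
    exact h1.comp_hasDerivAt 0 h0
  have happ : HasDerivAt (fun t : ℝ => fderiv ℝ f (x + t • e) e)
      (fderiv ℝ (fderiv ℝ f) x e e) 0 := by
    have := hcomp.clm_apply (hasDerivAt_const (0 : ℝ) e)
    simpa using this
  rw [happ.deriv, iteratedFDeriv_two_apply]
  simp

variable {n : ℕ}

/-- The Laplacian as a sum of second derivatives along the coordinate lines. -/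
lemma lap_eq_sum {f : Eu n → ℝ} {x : Eu n} (hf : ContDiffAt ℝ 2 f x) :
    (Δ f) x = ∑ i, deriv (deriv fun t : ℝ => f (x + t • (EuclideanSpace.basisFun (Fin n) ℝ) i)) 0 := by
  rw [laplacian_eq_iteratedFDeriv_orthonormalBasis f (EuclideanSpace.basisFun (Fin n) ℝ)]
  exact Finset.sum_congr rfl (fun i _ => iterated_two_eq_deriv hf)

lemma deriv2_nonneg_of_isLocalMin {g : ℝ → ℝ} (hg : IsLocalMin g 0) (hc : ContinuousAt g 0) :
    0 ≤ deriv (deriv g) 0 := by
  by_contra h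
  push Not at h
  have h1 : deriv g 0 = 0 := hg.deriv_eq_zero
  have h2 : IsLocalMax g 0 := isLocalMax_of_deriv_deriv_neg h h1 hc
  have h3 : g =ᶠ[𝓝 0] fun _ => g 0 := by
    filter_upwards [hg, h2] with t ht1 ht2
    exact le_antisymm ht2 ht1
  have h4 : deriv g =ᶠ[𝓝 0] deriv (fun _ => g 0) := h3.deriv
  have h5 : deriv (deriv g) 0 = deriv (deriv (fun _ : ℝ => g 0)) 0 := h4.deriv_eq
  simp at h5
  linarith

/-- At a local minimum of a `C²` function the Laplacian is nonnegative. -/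
lemma lap_nonneg_of_isLocalMin {f : Eu n → ℝ} {x : Eu n} (hf : ContDiffAt ℝ 2 f x)
    (hm : IsLocalMin f x) : 0 ≤ (Δ f) x := by
  rw [lap_eq_sum hf]
  refine Finset.sum_nonneg (fun i _ => ?_)
  set e := (EuclideanSpace.basisFun (Fin n) ℝ) i
  have hcont : ContinuousAt (fun t : ℝ => x + t • e) 0 := by fun_prop
  have hx : x + (0 : ℝ) • e = x := by simp
  have hfc : ContinuousAt f (x + (0 : ℝ) • e) := by rw [hx]; exact hf.continuousAt
  apply deriv2_nonneg_of_isLocalMin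
  · have hm' : IsLocalMin f ((fun t : ℝ => x + t • e) 0) := by
      show IsLocalMin f (x + (0 : ℝ) • e)
      rw [hx]; exact hm
    exact IsLocalMin.comp_continuous (g := fun t : ℝ => x + t • e) (b := 0) hm' hcont
  · exact ContinuousAt.comp (g := f) (f := fun t : ℝ => x + t • e) (x := 0) hfc hcont

/-- Radial Laplacian: the Laplacian of `h (‖y‖²)`. -/
lemma lap_radial {x : Eu n} {h h1 : ℝ → ℝ} {h2 : ℝ}
    (hh : ∀ᶠ s in 𝓝 (‖x‖ ^ 2), HasDerivAt h (h1 s) s) (hh1 : HasDerivAt h1 h2 (‖x‖ ^ 2))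
    (hc : ContDiffAt ℝ 2 (fun y : Eu n => h (‖y‖ ^ 2)) x) :
    (Δ (fun y : Eu n => h (‖y‖ ^ 2))) x = 4 * ‖x‖ ^ 2 * h2 + 2 * n * h1 (‖x‖ ^ 2) := by
  rw [lap_eq_sum hc]
  have key : ∀ i : Fin n, deriv (deriv fun t : ℝ =>
      h (‖x + t • (EuclideanSpace.basisFun (Fin n) ℝ) i‖ ^ 2)) 0
        = h2 * (2 * x i) ^ 2 + 2 * h1 (‖x‖ ^ 2) := by
    intro i
    set e := (EuclideanSpace.basisFun (Fin n) ℝ) i with he
    have hen : ‖e‖ = 1 := by
      simp [he]
    have hin : inner ℝ x e = x i := by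
      simp [he, EuclideanSpace.inner_single_right]
    have hQ : ∀ t : ℝ, ‖x + t • e‖ ^ 2 = ‖x‖ ^ 2 + 2 * t * x i + t ^ 2 := by
      intro t
      rw [norm_add_sq_real, inner_smul_right, hin, norm_smul, hen]
      simp only [Real.norm_eq_abs, mul_one, sq_abs]
      ring
    set Q : ℝ → ℝ := fun t => ‖x‖ ^ 2 + 2 * t * x i + t ^ 2 with hQdef
    have hfun : (fun t : ℝ => h (‖x + t • e‖ ^ 2)) = fun t => h (Q t) := by
      funext t; rw [hQ]
    rw [hfun]
    have hQd : ∀ t : ℝ, HasDerivAt Q (2 * x i + 2 * t) t := by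
      intro t
      have h1 : HasDerivAt (fun t : ℝ => 2 * t * x i) (2 * x i) t := by
        have := ((hasDerivAt_id' t).const_mul (2 : ℝ)).mul_const (x i)
        simpa using this
      have h2 : HasDerivAt (fun t : ℝ => t ^ 2) (2 * t) t := by
        have := hasDerivAt_pow 2 t
        simpa using this
      exact (h1.const_add (‖x‖ ^ 2)).fun_add h2
    have hQ0 : Q 0 = ‖x‖ ^ 2 := by simp [hQdef]
    have hQcont : Tendsto Q (𝓝 0) (𝓝 (‖x‖ ^ 2)) := by
      have := (hQd 0).continuousAt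
      simpa [ContinuousAt, hQ0] using this
    have hev : ∀ᶠ t in 𝓝 (0 : ℝ), HasDerivAt h (h1 (Q t)) (Q t) := hQcont.eventually hh
    have hd : (deriv fun t : ℝ => h (Q t)) =ᶠ[𝓝 0] fun t => h1 (Q t) * (2 * x i + 2 * t) := by
      filter_upwards [hev] with t ht
      exact (ht.comp t (hQd t)).deriv
    rw [hd.deriv_eq]
    have hh1' : HasDerivAt h1 h2 (Q 0) := by rw [hQ0]; exact hh1
    have hcomp : HasDerivAt (fun t => h1 (Q t)) (h2 * (2 * x i + 2 * 0)) 0 :=
      hh1'.comp 0 (hQd 0)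
    have hlin : HasDerivAt (fun t : ℝ => 2 * x i + 2 * t) 2 0 := by
      have := ((hasDerivAt_id (0 : ℝ)).const_mul (2 : ℝ)).const_add (2 * x i)
      simpa using this
    have hprod := hcomp.fun_mul hlin
    rw [hprod.deriv, hQ0]
    ring
  rw [Finset.sum_congr rfl (fun i _ => key i)]
  have hs : ∑ i : Fin n, (x i) ^ 2 = ‖x‖ ^ 2 := by
    rw [EuclideanSpace.real_norm_sq_eq]
  have : ∑ i : Fin n, (h2 * (2 * x i) ^ 2 + 2 * h1 (‖x‖ ^ 2))
      = 4 * h2 * ∑ i : Fin n, (x i) ^ 2 + n * (2 * h1 (‖x‖ ^ 2)) := by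
    rw [Finset.sum_add_distrib, Finset.mul_sum]
    simp only [Finset.sum_const, Finset.card_univ, Fintype.card_fin, nsmul_eq_mul]
    congr 1
    refine Finset.sum_congr rfl (fun i _ => ?_)
    ring
  rw [this, hs]
  ring

/-- The logarithm of the norm. -/
noncomputable def logNorm (n : ℕ) : Eu n → ℝ := fun y => Real.log ‖y‖

lemma logNorm_contDiffAt {x : Eu n} (hx : x ≠ 0) : ContDiffAt ℝ 2 (logNorm n) x :=
  (contDiffAt_norm ℝ hx).log (norm_ne_zero_iff.2 hx)

/-- `Δ log‖x‖ = (n-2)/‖x‖²`. -/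
lemma lap_logNorm {x : Eu n} (hx : x ≠ 0) : (Δ (logNorm n)) x = ((n : ℝ) - 2) / ‖x‖ ^ 2 := by
  have hpos : 0 < ‖x‖ ^ 2 := by
    have := norm_pos_iff.2 hx
    positivity
  have hfun : logNorm n = fun y : Eu n => (fun s => (1 / 2 : ℝ) * Real.log s) (‖y‖ ^ 2) := by
    funext y
    simp only [logNorm, Real.log_pow]
    push_cast
    ring
  have hc := logNorm_contDiffAt (n := n) hx
  rw [hfun] at hc ⊢
  have hder : ∀ᶠ s in 𝓝 (‖x‖ ^ 2), HasDerivAt (fun s => (1 / 2 : ℝ) * Real.log s)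
      ((fun s => (1 / 2 : ℝ) * s⁻¹) s) s := by
    filter_upwards [lt_mem_nhds hpos] with s hs
    exact (Real.hasDerivAt_log hs.ne').const_mul _
  have hder1 : HasDerivAt (fun s : ℝ => (1 / 2 : ℝ) * s⁻¹)
      ((1 / 2 : ℝ) * (-(‖x‖ ^ 2) ^ (-2 : ℤ)) ) (‖x‖ ^ 2) := by
    have := (hasDerivAt_inv hpos.ne').const_mul (1 / 2 : ℝ)
    simpa [zpow_neg] using this
  rw [lap_radial hder hder1 hc]
  have hne : ‖x‖ ^ 2 ≠ 0 := hpos.ne'
  simp only [zpow_neg]
  field_simp
  try ring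

end Vale.Agent.P100
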