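import Mathlib

open Laplacian

namespace Vale.Agent.P100

/-- The Euclidean space `ℝ^n`. -/
abbrev Eu (n : ℕ) := EuclideanSpace ℝ (Fin n)

/-- A positive entire solution of the Hénon-Lane-Emden system on `ℝ^n`:
`u, v` are `C²` off the origin, continuous on `ℝ^n`, positive everywhere, and
`-Δu = |x|^A v^p`, `-Δv = |x|^B u^q` at every `x ≠ 0`. -/
structure IsPositiveEntireSolution (n : ℕ) (A B p q : ℝ) (u v : Eu n → ℝ) : Prop where
  contDiffOn_u : ContDiffOn ℝ 2 u {x | x ≠ 0}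
  contDiffOn_v : ContDiffOn ℝ 2 v {x | x ≠ 0}
  continuous_u : Continuous u
  continuous_v : Continuous v
  pos_u : ∀ x, 0 < u x
  pos_v : ∀ x, 0 < v x
  eq_u : ∀ x, x ≠ 0 → -(Δ u) x = ‖x‖ ^ A * v x ^ p
  eq_v : ∀ x, x ≠ 0 → -(Δ v) x = ‖x‖ ^ B * u x ^ q

end Vale.Agent.P100
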