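import Vale.Agent.P100.Basic

open Filter Topology Laplacian InnerProductSpace

namespace Vale.Agent.P100

variable {n : ℕ}

/-- Minimum principle on a closed annulus for a function of negative Laplacian. -/
lemma annulus_min {φ : Eu n → ℝ} {r1 r2 M : ℝ}
    (hφ : ∀ z : Eu n, r1 < ‖z‖ → ‖z‖ < r2 → ContDiffAt ℝ 2 φ z ∧ (Δ φ) z < 0)
    (hcont : ContinuousOn φ {z | r1 ≤ ‖z‖ ∧ ‖z‖ ≤ r2})
    (hb1 : ∀ z : Eu n, ‖z‖ = r1 → M ≤ φ z) (hb2 : ∀ z : Eu n, ‖z‖ = r2 → M ≤ φ z) :
    ∀ z : Eu n, r1 ≤ ‖z‖ → ‖z‖ ≤ r2 → M ≤ φ z := by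
  intro z0 hz1 hz2
  set K : Set (Eu n) := {z | r1 ≤ ‖z‖ ∧ ‖z‖ ≤ r2} with hK
  have hKc : IsCompact K := by
    have h1 : IsCompact (Metric.closedBall (0 : Eu n) r2) := isCompact_closedBall 0 r2
    have h2 : IsClosed {z : Eu n | r1 ≤ ‖z‖} := isClosed_le continuous_const continuous_norm
    have h3 := h1.inter_right h2
    have h4 : K = Metric.closedBall (0 : Eu n) r2 ∩ {z : Eu n | r1 ≤ ‖z‖} := by
      ext z
      simp [hK, and_comm]
    rw [h4]
    exact h3
  obtain ⟨y, hyK, hy⟩ := hKc.exists_isMinOn ⟨z0, hz1, hz2⟩ hcont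
  have hle : φ y ≤ φ z0 := hy ⟨hz1, hz2⟩
  by_cases h1 : ‖y‖ = r1
  · exact (hb1 y h1).trans hle
  by_cases h2 : ‖y‖ = r2
  · exact (hb2 y h2).trans hle
  exfalso
  have h1' : r1 < ‖y‖ := lt_of_le_of_ne hyK.1 (Ne.symm h1)
  have h2' : ‖y‖ < r2 := lt_of_le_of_ne hyK.2 h2
  obtain ⟨hcd, hneg⟩ := hφ y h1' h2'
  have hnhds : K ∈ 𝓝 y := by
    have hopen : IsOpen {z : Eu n | r1 < ‖z‖ ∧ ‖z‖ < r2} :=
      (isOpen_lt continuous_const continuous_norm).inter (isOpen_lt continuous_norm continuous_const)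
    refine Filter.mem_of_superset (hopen.mem_nhds ⟨h1', h2'⟩) ?_
    intro z hz
    exact ⟨hz.1.le, hz.2.le⟩
  have hloc : IsLocalMin φ y := hy.isLocalMin hnhds
  have := lap_nonneg_of_isLocalMin hcd hloc
  linarith

/-- `u + c log‖·‖` has the Laplacian of `u` in the plane. -/
lemma lap_add_log {u : Eu 2 → ℝ} {z : Eu 2} (hz : z ≠ 0) (hu : ContDiffAt ℝ 2 u z) (c : ℝ) :
    ContDiffAt ℝ 2 (u + c • logNorm 2) z ∧ (Δ (u + c • logNorm 2)) z = (Δ u) z := by
  have hl := logNorm_contDiffAt (n := 2) hz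
  have hcl : ContDiffAt ℝ 2 (c • logNorm 2) z := hl.const_smul c
  refine ⟨hu.add hcl, ?_⟩
  rw [hu.laplacian_add hcl, laplacian_smul c hl, lap_logNorm hz]
  norm_num

/-- There is no positive function with negative Laplacian on the punctured plane. -/
theorem no_positive_super_plane {u : Eu 2 → ℝ}
    (hc : ContDiffOn ℝ 2 u {x | x ≠ 0}) (hpos : ∀ x, x ≠ 0 → 0 < u x)
    (hlap : ∀ x, x ≠ 0 → (Δ u) x < 0) : False := by
  have hopen : IsOpen {x : Eu 2 | x ≠ 0} := isOpen_ne
  have hat : ∀ x : Eu 2, x ≠ 0 → ContDiffAt ℝ 2 u x := fun x hx =>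
    hc.contDiffAt (hopen.mem_nhds hx)
  -- the unit circle
  set S : Set (Eu 2) := {z | ‖z‖ = 1} with hS
  have hSc : IsCompact S := by
    have : S = Metric.sphere (0 : Eu 2) 1 := by
      ext z; simp [hS]
    rw [this]
    exact isCompact_sphere 0 1
  have hSne : S.Nonempty := by
    refine ⟨(EuclideanSpace.basisFun (Fin 2) ℝ) 0, ?_⟩
    simp [hS]
  have hne1 : ∀ z : Eu 2, ‖z‖ = 1 → z ≠ 0 := by
    intro z hz h0
    rw [h0] at hz
    simp at hz
  have hSu : ContinuousOn u S := fun z hz =>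
    (hat z (hne1 z hz)).continuousAt.continuousWithinAt
  obtain ⟨x0, hx0, hmin⟩ := hSc.exists_isMinOn hSne hSu
  set m := u x0 with hm
  have hmS : ∀ z : Eu 2, ‖z‖ = 1 → m ≤ u z := fun z hz => hmin hz
  -- comparison on annuli
  have hcomp : ∀ (c r1 r2 : ℝ), 0 < r1 → ∀ M : ℝ,
      (∀ z : Eu 2, ‖z‖ = r1 → M ≤ u z + c * Real.log ‖z‖) →
      (∀ z : Eu 2, ‖z‖ = r2 → M ≤ u z + c * Real.log ‖z‖) →
      ∀ z : Eu 2, r1 ≤ ‖z‖ → ‖z‖ ≤ r2 → M ≤ u z + c * Real.log ‖z‖ := by
    intro c r1 r2 hr1 M hb1 hb2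
    have hnz : ∀ z : Eu 2, r1 ≤ ‖z‖ → z ≠ 0 := by
      intro z hz h0
      rw [h0, norm_zero] at hz
      linarith
    have key := annulus_min (n := 2) (φ := u + c • logNorm 2) (r1 := r1) (r2 := r2) (M := M)
      (fun z hz1 hz2 => by
        have hz : z ≠ 0 := hnz z hz1.le
        obtain ⟨h1, h2⟩ := lap_add_log hz (hat z hz) c
        exact ⟨h1, by rw [h2]; exact hlap z hz⟩)
      (fun z hz => by
        have hz0 : z ≠ 0 := hnz z hz.1
        obtain ⟨h1, _⟩ := lap_add_log hz0 (hat z hz0) c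
        exact h1.continuousAt.continuousWithinAt)
      (fun z hz => by simpa [logNorm] using hb1 z hz)
      (fun z hz => by simpa [logNorm] using hb2 z hz)
    intro z hz1 hz2
    simpa [logNorm] using key z hz1 hz2
  -- the bound everywhere
  have hall : ∀ y : Eu 2, y ≠ 0 → m ≤ u y := by
    intro y hy
    have hypos : 0 < ‖y‖ := norm_pos_iff.2 hy
    rcases lt_trichotomy ‖y‖ 1 with h | h | h
    · -- inside the disc
      have hlog : Real.log ‖y‖ < 0 := Real.log_neg hypos h
      refine le_of_forall_pos_le_add (fun δ hδ => ?_)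
      set ε := δ / (-Real.log ‖y‖) with hε
      have hεpos : 0 < ε := div_pos hδ (by linarith)
      set r1 := min ‖y‖ (Real.exp (-(m / ε))) with hr1
      have hr1pos : 0 < r1 := lt_min hypos (Real.exp_pos _)
      have hr1y : r1 ≤ ‖y‖ := min_le_left _ _
      have hr1e : Real.log r1 ≤ -(m / ε) := by
        have : r1 ≤ Real.exp (-(m / ε)) := min_le_right _ _
        have h2 := Real.log_le_log hr1pos this
        rwa [Real.log_exp] at h2
      have := hcomp (-ε) r1 1 hr1pos m
        (fun z hz => by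
          rw [hz]
          have hz0 : z ≠ 0 := by
            intro h0; rw [h0, norm_zero] at hz; linarith
          have hu := hpos z hz0
          have h3 : ε * (m / ε) = m := by field_simp
          have h4 : -ε * Real.log r1 ≥ m := by
            have := mul_le_mul_of_nonneg_left hr1e hεpos.le
            nlinarith
          linarith)
        (fun z hz => by
          rw [hz, Real.log_one]
          simpa using hmS z hz)
        y hr1y h.le
      have h5 : -ε * Real.log ‖y‖ = δ := by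
        rw [hε]
        have : Real.log ‖y‖ ≠ 0 := hlog.ne
        field_simp
      linarith
    · exact hmS y h
    · -- outside the disc
      have hlog : 0 < Real.log ‖y‖ := Real.log_pos h
      refine le_of_forall_pos_le_add (fun δ hδ => ?_)
      set ε := δ / Real.log ‖y‖ with hε
      have hεpos : 0 < ε := div_pos hδ hlog
      set r2 := max ‖y‖ (Real.exp (m / ε)) with hr2
      have hr2y : ‖y‖ ≤ r2 := le_max_left _ _
      have hr2pos : 0 < r2 := lt_of_lt_of_le hypos hr2y
      have hr2e : m / ε ≤ Real.log r2 := by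
        have : Real.exp (m / ε) ≤ r2 := le_max_right _ _
        have h2 := Real.log_le_log (Real.exp_pos _) this
        rwa [Real.log_exp] at h2
      have := hcomp ε 1 r2 one_pos m
        (fun z hz => by
          rw [hz, Real.log_one]
          simpa using hmS z hz)
        (fun z hz => by
          rw [hz]
          have hz0 : z ≠ 0 := by
            intro h0; rw [h0, norm_zero] at hz; linarith
          have hu := hpos z hz0
          have h3 : ε * (m / ε) = m := by field_simp
          have h4 : ε * Real.log r2 ≥ m := by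
            have := mul_le_mul_of_nonneg_left hr2e hεpos.le
            linarith
          linarith)
        y h.le hr2y
      have h5 : ε * Real.log ‖y‖ = δ := by
        rw [hε]
        have : Real.log ‖y‖ ≠ 0 := hlog.ne'
        field_simp
      linarith
  -- the minimum is a local minimum: contradiction
  have hx0ne : x0 ≠ 0 := hne1 x0 hx0
  have hloc : IsLocalMin u x0 := by
    filter_upwards [hopen.mem_nhds hx0ne] with y hy
    exact hall y hy
  have := lap_nonneg_of_isLocalMin (hat x0 hx0ne) hloc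
  have := hlap x0 hx0ne
  linarith

/-- The Hénon-Lane-Emden system has no positive entire solution on the plane. -/
theorem no_solution_plane (A B p q : ℝ) (u v : Eu 2 → ℝ)
    (h : IsPositiveEntireSolution 2 A B p q u v) : False := by
  refine no_positive_super_plane h.contDiffOn_u (fun x _ => h.pos_u x) (fun x hx => ?_)
  have h1 := h.eq_u x hx
  have h2 : 0 < ‖x‖ ^ A * v x ^ p :=
    mul_pos (Real.rpow_pos_of_pos (norm_pos_iff.2 hx) _) (Real.rpow_pos_of_pos (h.pos_v x) _)
  linarith

end Vale.Agent.P100
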