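import Vale.Agent.P252.Separated

open scoped ContDiff
open Finset

namespace Vale.Agent.P100

/-- The Laplacian as the sum of the iterated second partial derivatives. -/
noncomputable def coordLaplacian {n : ℕ} (u : (Fin n → ℝ) → ℝ) (x : Fin n → ℝ) : ℝ :=
  ∑ i, deriv (deriv (fun t => u (Function.update x i t))) (x i)

lemma core {n : ℕ} (hn : 1 ≤ n) (r : Fin n → ℝ → ℝ) (hc : ∀ i, Continuous (r i))
    (h1 : ∀ i, (∀ t, r i t ≤ 0) → ∀ t, r i t = 0)
    (h3 : ∀ x : Fin n → ℝ, x ≠ 0 → ∑ i, r i (x i) < 0) : False := by
  have hex : ∀ i, ∃ t, t ≠ 0 ∧ 0 ≤ r i t := by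
    intro i
    by_cases h : ∀ t, r i t ≤ 0
    · exact ⟨1, one_ne_zero, (h1 i h 1).ge⟩
    · push Not at h
      obtain ⟨t, ht⟩ := h
      by_cases h0 : t = 0
      · subst h0
        have hopen : IsOpen {s | 0 < r i s} := isOpen_lt continuous_const (hc i)
        obtain ⟨ε, hε, hball⟩ := Metric.isOpen_iff.mp hopen 0 ht
        refine ⟨ε / 2, by positivity, ?_⟩
        have : ε / 2 ∈ Metric.ball (0 : ℝ) ε := by
          rw [Metric.mem_ball, Real.dist_eq, sub_zero, abs_of_pos (by positivity)]
          linarith
        exact (hball this).le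
      · exact ⟨t, h0, ht.le⟩
  choose t ht0 htp using hex
  have hne : t ≠ 0 := by
    intro h0
    have := congrFun h0 ⟨0, hn⟩
    exact ht0 _ (by simpa using this)
  have h4 := h3 t hne
  have h5 : 0 ≤ ∑ i, r i (t i) := Finset.sum_nonneg fun i _ => htp i
  linarith

lemma second_deriv_continuous {f : ℝ → ℝ} (hf : ContDiff ℝ 2 f) : Continuous (deriv (deriv f)) := by
  have h1 : ContDiff ℝ 1 (deriv f) := by
    have : (2 : WithTop ℕ∞) = 1 + 1 := by norm_num
    rw [this, contDiff_succ_iff_deriv] at hf
    exact hf.2.2
  have h2 : ContDiff ℝ 0 (deriv (deriv f)) := by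
    have : (1 : WithTop ℕ∞) = 0 + 1 := by norm_num
    rw [this, contDiff_succ_iff_deriv] at h1
    exact h1.2.2
  exact h2.continuous

lemma diff_facts {f : ℝ → ℝ} (hf : ContDiff ℝ 2 f) :
    Differentiable ℝ f ∧ Differentiable ℝ (deriv f) := by
  refine ⟨hf.differentiable (by norm_num), ?_⟩
  have h1 : ContDiff ℝ 1 (deriv f) := by
    have : (2 : WithTop ℕ∞) = 1 + 1 := by norm_num
    rw [this, contDiff_succ_iff_deriv] at hf
    exact hf.2.2
  exact h1.differentiable (by norm_num)

/-- A twice differentiable function on the line, bounded below, with `f'' ≤ 0` has `f'' = 0`. -/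
lemma concave_bounded {f : ℝ → ℝ} (hf : ContDiff ℝ 2 f) {C : ℝ} (hC : ∀ t, C < f t)
    (h : ∀ t, deriv (deriv f) t ≤ 0) : ∀ t, deriv (deriv f) t = 0 := by
  obtain ⟨hd, hd'⟩ := diff_facts hf
  have hderiv : deriv (fun t => f t - C) = deriv f := by
    funext t
    exact deriv_sub_const _
  have hzero : ∀ a, deriv (fun t => f t - C) a = 0 :=
    Vale.Agent.P252.concave_pos_const (hd.sub_const C) (by rw [hderiv]; exact hd')
      (fun t => by linarith [hC t]) (by rw [hderiv]; exact h)
  rw [hderiv] at hzero
  have h2 : deriv f = fun _ => 0 := funext hzero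
  intro t
  rw [h2]
  simp

/-- No positive function with negative Laplacian off the origin is a sum of functions of one
coordinate. -/
theorem no_sum {n : ℕ} (hn : 2 ≤ n) (f : Fin n → ℝ → ℝ) (hf : ∀ i, ContDiff ℝ 2 (f i))
    (hpos : ∀ x : Fin n → ℝ, 0 < ∑ i, f i (x i))
    (hsuper : ∀ x : Fin n → ℝ, x ≠ 0 → coordLaplacian (fun x => ∑ i, f i (x i)) x < 0) : False := by
  have hlap : ∀ x : Fin n → ℝ, coordLaplacian (fun x => ∑ i, f i (x i)) x
      = ∑ i, deriv (deriv (f i)) (x i) := by
    intro x
    unfold coordLaplacian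
    apply Finset.sum_congr rfl
    intro i _
    have h1 : (fun t => ∑ j, f j (Function.update x i t j))
        = fun t => f i t + ∑ j ∈ univ.erase i, f j (x j) := by
      funext t
      rw [← Finset.add_sum_erase univ _ (mem_univ i)]
      simp only [Function.update_self]
      congr 1
      apply Finset.sum_congr rfl
      intro j hj
      rw [Function.update_of_ne (Finset.ne_of_mem_erase hj)]
    rw [h1]
    have h2 : deriv (fun t => f i t + ∑ j ∈ univ.erase i, f j (x j)) = deriv (f i) := by
      funext t
      exact deriv_add_const _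
    rw [h2]
  apply core (by omega) (fun i => deriv (deriv (f i)))
    (fun i => second_deriv_continuous (hf i))
  · intro i hi
    -- the function `f i` is bounded below
    refine concave_bounded (hf i) (C := -∑ j ∈ univ.erase i, f j 0) ?_ hi
    intro t
    have h1 := hpos (Function.update 0 i t)
    rw [← Finset.add_sum_erase univ _ (mem_univ i)] at h1
    simp only [Function.update_self] at h1
    have h2 : ∑ j ∈ univ.erase i, f j (Function.update (0 : Fin n → ℝ) i t j)
        = ∑ j ∈ univ.erase i, f j 0 := by
      apply Finset.sum_congr rfl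
      intro j hj
      rw [Function.update_of_ne (Finset.ne_of_mem_erase hj)]
      rfl
    rw [h2] at h1
    linarith
  · intro x hx
    rw [← hlap]
    exact hsuper x hx

/-- No positive function with negative Laplacian off the origin is a product of positive functions
of one coordinate. -/
theorem no_product {n : ℕ} (hn : 2 ≤ n) (f : Fin n → ℝ → ℝ) (hf : ∀ i, ContDiff ℝ 2 (f i))
    (hfpos : ∀ i t, 0 < f i t)
    (hsuper : ∀ x : Fin n → ℝ, x ≠ 0 → coordLaplacian (fun x => ∏ i, f i (x i)) x < 0) : False := by
  have hlap : ∀ x : Fin n → ℝ, coordLaplacian (fun x => ∏ i, f i (x i)) x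
      = ∑ i, deriv (deriv (f i)) (x i) * ∏ j ∈ univ.erase i, f j (x j) := by
    intro x
    unfold coordLaplacian
    apply Finset.sum_congr rfl
    intro i _
    have h1 : (fun t => ∏ j, f j (Function.update x i t j))
        = fun t => f i t * ∏ j ∈ univ.erase i, f j (x j) := by
      funext t
      rw [← Finset.mul_prod_erase univ _ (mem_univ i)]
      simp only [Function.update_self]
      congr 1
      apply Finset.prod_congr rfl
      intro j hj
      rw [Function.update_of_ne (Finset.ne_of_mem_erase hj)]
    rw [h1]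
    have h2 : deriv (fun t => f i t * ∏ j ∈ univ.erase i, f j (x j))
        = fun s => deriv (f i) s * ∏ j ∈ univ.erase i, f j (x j) := by
      funext t
      exact deriv_mul_const_field _
    rw [h2]
    exact deriv_mul_const_field _
  apply core (by omega) (fun i t => deriv (deriv (f i)) t / f i t)
    (fun i => (second_deriv_continuous (hf i)).div (hf i).continuous (fun t => (hfpos i t).ne'))
  · intro i hi t
    have h1 : ∀ t, deriv (deriv (f i)) t ≤ 0 := by
      intro t
      have := hi t
      rwa [div_le_iff₀ (hfpos i t), zero_mul] at this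
    have h2 := concave_bounded (hf i) (C := 0) (hfpos i) h1
    rw [h2 t, zero_div]
  · intro x hx
    have h0 := hsuper x hx
    rw [hlap] at h0
    have hP : 0 < ∏ j, f j (x j) := Finset.prod_pos fun j _ => hfpos j _
    have h1 : ∀ i ∈ (univ : Finset (Fin n)),
        deriv (deriv (f i)) (x i) * ∏ j ∈ univ.erase i, f j (x j)
        = (deriv (deriv (f i)) (x i) / f i (x i)) * ∏ j, f j (x j) := by
      intro i _
      rw [← Finset.mul_prod_erase univ _ (mem_univ i)]
      have := (hfpos i (x i)).ne'
      field_simp
    rw [Finset.sum_congr rfl h1, ← Finset.sum_mul] at h0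
    by_contra hcon
    push Not at hcon
    have := mul_nonneg hcon hP.le
    linarith

end Vale.Agent.P100
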