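import Vale.Agent.P100.Plane

open Filter Topology Laplacian InnerProductSpace

namespace Vale.Agent.P100

variable {n : ℕ}

/-- The exponent `(2-n)/2`. -/
noncomputable def powExp (n : ℕ) : ℝ := (2 - (n : ℝ)) / 2

/-- The fundamental solution `(‖y‖²)^((2-n)/2)`. -/
noncomputable def powNorm (n : ℕ) : Eu n → ℝ := fun y => (‖y‖ ^ 2) ^ (powExp n)

lemma powNorm_contDiffAt {x : Eu n} (hx : x ≠ 0) : ContDiffAt ℝ 2 (powNorm n) x := by
  have h1 : ContDiffAt ℝ 2 (fun y : Eu n => ‖y‖ ^ 2) x := (contDiffAt_norm ℝ hx).pow 2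
  have hpos : ‖x‖ ^ 2 ≠ 0 := pow_ne_zero 2 (norm_ne_zero_iff.2 hx)
  exact h1.rpow_const_of_ne hpos

lemma lap_powNorm {x : Eu n} (hx : x ≠ 0) : (Δ (powNorm n)) x = 0 := by
  set α := powExp n with hα
  have hpos : 0 < ‖x‖ ^ 2 := by
    have := norm_pos_iff.2 hx
    positivity
  have hder : ∀ᶠ s in 𝓝 (‖x‖ ^ 2), HasDerivAt (fun s : ℝ => s ^ α)
      ((fun s => α * s ^ (α - 1)) s) s := by
    filter_upwards [lt_mem_nhds hpos] with s hs
    exact Real.hasDerivAt_rpow_const (Or.inl hs.ne')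
  have hder1 : HasDerivAt (fun s : ℝ => α * s ^ (α - 1))
      (α * ((α - 1) * (‖x‖ ^ 2) ^ (α - 1 - 1))) (‖x‖ ^ 2) :=
    (Real.hasDerivAt_rpow_const (Or.inl hpos.ne')).const_mul α
  have hc := powNorm_contDiffAt (n := n) hx
  have key := lap_radial (n := n) (x := x) (h := fun s => s ^ α) hder hder1 hc
  have hfun : powNorm n = fun y : Eu n => (fun s : ℝ => s ^ α) (‖y‖ ^ 2) := rfl
  rw [hfun, key]
  have hsplit : (‖x‖ ^ 2) ^ (α - 1) = (‖x‖ ^ 2) ^ (α - 1 - 1) * ‖x‖ ^ 2 := by
    rw [← Real.rpow_add_one hpos.ne']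
    congr 1
    ring
  rw [hsplit]
  have hαv : α = (2 - (n : ℝ)) / 2 := rfl
  set b := (‖x‖ ^ 2) ^ (α - 1 - 1)
  have : 4 * ‖x‖ ^ 2 * (α * ((α - 1) * b)) + 2 * (n : ℝ) * (α * (b * ‖x‖ ^ 2))
      = ‖x‖ ^ 2 * b * α * (4 * (α - 1) + 2 * (n : ℝ)) := by ring
  rw [this, hαv]
  have h0 : 4 * ((2 - (n : ℝ)) / 2 - 1) + 2 * (n : ℝ) = 0 := by ring
  rw [h0, mul_zero]

/-- A weight `A ≤ -2` forces `u` to blow up at the origin when `n ≥ 3`. -/
theorem no_solution_low_weight (hn : 3 ≤ n) {A p : ℝ} (hA : A ≤ -2) {u v : Eu n → ℝ}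
    (hc : ContDiffOn ℝ 2 u {x | x ≠ 0}) (huc : Continuous u) (hvc : Continuous v)
    (hu : ∀ x, 0 < u x) (hv : ∀ x, 0 < v x)
    (heq : ∀ x, x ≠ 0 → -(Δ u) x = ‖x‖ ^ A * v x ^ p) : False := by
  have hd : (0 : ℝ) < (n : ℝ) - 2 := by
    have : (3 : ℝ) ≤ n := by exact_mod_cast hn
    linarith
  have hopen : IsOpen {x : Eu n | x ≠ 0} := isOpen_ne
  have hat : ∀ x : Eu n, x ≠ 0 → ContDiffAt ℝ 2 u x := fun x hx =>
    hc.contDiffAt (hopen.mem_nhds hx)
  have hvp : Continuous (fun x => v x ^ p) := hvc.rpow_const (fun x => Or.inl (hv x).ne')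
  obtain ⟨x1, _, hmin⟩ := (isCompact_closedBall (0 : Eu n) 1).exists_isMinOn
    ⟨0, by simp⟩ hvp.continuousOn
  set c1 := v x1 ^ p with hc1def
  have hc1 : 0 < c1 := Real.rpow_pos_of_pos (hv x1) p
  have hball : ∀ x : Eu n, ‖x‖ ≤ 1 → c1 ≤ v x ^ p := fun x hx => hmin (by simpa using hx)
  have hlap : ∀ x : Eu n, x ≠ 0 → ‖x‖ ≤ 1 → (Δ u) x ≤ -c1 / ‖x‖ ^ 2 := by
    intro x hx hx1
    have hnpos := norm_pos_iff.2 hx
    have h1 := heq x hx
    have h2 : ‖x‖ ^ (-2 : ℝ) ≤ ‖x‖ ^ A := Real.rpow_le_rpow_of_exponent_ge hnpos hx1 hA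
    have h3 : ‖x‖ ^ (-2 : ℝ) = 1 / ‖x‖ ^ 2 := by
      rw [Real.rpow_neg hnpos.le, Real.rpow_two, one_div]
    rw [h3] at h2
    have h4 : (1 / ‖x‖ ^ 2) * c1 ≤ ‖x‖ ^ A * v x ^ p :=
      mul_le_mul h2 (hball x hx1) hc1.le (Real.rpow_nonneg hnpos.le _)
    have h5 : -c1 / ‖x‖ ^ 2 = -((1 / ‖x‖ ^ 2) * c1) := by ring
    rw [h5]
    linarith
  set d := (n : ℝ) - 2 with hddef
  set k := c1 / (2 * d) with hkdef
  have hk : 0 < k := div_pos hc1 (by linarith)
  have hkd : k * d = c1 / 2 := by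
    rw [hkdef]
    field_simp
  have hcomb : ∀ (β : ℝ) (z : Eu n), z ≠ 0 → ‖z‖ ≤ 1 →
      ContDiffAt ℝ 2 (u + k • logNorm n + β • powNorm n) z ∧
        (Δ (u + k • logNorm n + β • powNorm n)) z < 0 := by
    intro β z hz hz1
    have h1 := logNorm_contDiffAt (n := n) hz
    have h2 := powNorm_contDiffAt (n := n) hz
    have h3 : ContDiffAt ℝ 2 (k • logNorm n) z := h1.const_smul k
    have h4 : ContDiffAt ℝ 2 (β • powNorm n) z := h2.const_smul β
    have h5 : ContDiffAt ℝ 2 (u + k • logNorm n) z := (hat z hz).add h3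
    refine ⟨h5.add h4, ?_⟩
    rw [h5.laplacian_add h4, (hat z hz).laplacian_add h3, laplacian_smul k h1,
      laplacian_smul β h2, lap_logNorm hz, lap_powNorm hz]
    have h6 := hlap z hz hz1
    have hq : 0 < ‖z‖ ^ 2 := by
      have := norm_pos_iff.2 hz
      positivity
    have h7 : k • (((n : ℝ) - 2) / ‖z‖ ^ 2) = (c1 / 2) / ‖z‖ ^ 2 := by
      rw [smul_eq_mul, ← mul_div_assoc, hkd]
    have h8 : -c1 / ‖z‖ ^ 2 + (c1 / 2) / ‖z‖ ^ 2 < 0 := by
      rw [← add_div]
      exact div_neg_of_neg_of_pos (by linarith) hq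
    rw [h7]
    simp only [smul_zero, add_zero]
    linarith
  have hbound : ∀ x : Eu n, x ≠ 0 → ‖x‖ < 1 → k * (-Real.log ‖x‖) ≤ u x := by
    intro x hx hx1
    have hnpos := norm_pos_iff.2 hx
    refine le_of_forall_pos_le_add (fun η hη => ?_)
    set Px := powNorm n x with hPxdef
    have hq : 0 < ‖x‖ ^ 2 := by positivity
    have hPx : 0 < Px := Real.rpow_pos_of_pos hq _
    set r := d / 2 with hrdef
    have hr : 0 < r := by positivity
    have hexp : powExp n = -r := by
      rw [hrdef, hddef, powExp]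
      ring
    have ht := tendsto_log_mul_rpow_nhdsGT_zero hr
    have hηpos : 0 < η / (k * Px) := by positivity
    have hev1 : ∀ᶠ s in 𝓝[>] (0 : ℝ), |Real.log s * s ^ r| < η / (k * Px) := by
      have := ht.eventually (Metric.ball_mem_nhds (0 : ℝ) hηpos)
      filter_upwards [this] with s hs
      simpa [Real.dist_eq] using hs
    have hmin' : (0 : ℝ) < min (‖x‖ ^ 2) 1 := lt_min hq one_pos
    have hev2 : Set.Ioo (0 : ℝ) (min (‖x‖ ^ 2) 1) ∈ 𝓝[>] (0 : ℝ) := Ioo_mem_nhdsGT hmin'
    obtain ⟨s, hs1, hs2⟩ := (hev1.and hev2).exists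
    have hs0 : 0 < s := hs2.1
    have hsx : s < ‖x‖ ^ 2 := lt_of_lt_of_le hs2.2 (min_le_left _ _)
    have hs1' : s < 1 := lt_of_lt_of_le hs2.2 (min_le_right _ _)
    set ε := Real.sqrt s with hεdef
    have hεpos : 0 < ε := Real.sqrt_pos.2 hs0
    have hεsq : ε ^ 2 = s := Real.sq_sqrt hs0.le
    have hlogε : Real.log ε = (1 / 2) * Real.log s := by
      rw [hεdef, Real.log_sqrt hs0.le]
      ring
    have hεx : ε ≤ ‖x‖ := by
      apply le_of_lt
      have : ε ^ 2 < ‖x‖ ^ 2 := by rw [hεsq]; exact hsx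
      exact lt_of_pow_lt_pow_left₀ 2 hnpos.le this
    have hlogs : Real.log s < 0 := Real.log_neg hs0 hs1'
    have hsr : 0 < s ^ r := Real.rpow_pos_of_pos hs0 r
    set β := k * (-Real.log ε) * s ^ r with hβdef
    have hβ0 : 0 ≤ β := by
      rw [hβdef, hlogε]
      have : 0 ≤ -((1 / 2) * Real.log s) := by linarith
      positivity
    have hεne : ∀ z : Eu n, ‖z‖ = ε → z ≠ 0 := by
      intro z hz h0
      rw [h0, norm_zero] at hz
      linarith
    have key := annulus_min (n := n) (φ := u + k • logNorm n + β • powNorm n)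
      (r1 := ε) (r2 := 1) (M := 0)
      (fun z hz1 hz2 => by
        have hz : z ≠ 0 := by
          intro h0
          rw [h0, norm_zero] at hz1
          linarith
        exact hcomb β z hz hz2.le)
      (fun z hz => by
        have hz0 : z ≠ 0 := by
          intro h0
          have := hz.1
          rw [h0, norm_zero] at this
          linarith
        exact (hcomb β z hz0 hz.2).1.continuousAt.continuousWithinAt)
      (fun z hz => by
        have hval : (u + k • logNorm n + β • powNorm n) z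
            = u z + k * Real.log ε + β * s ^ (-r) := by
          simp only [Pi.add_apply, Pi.smul_apply, smul_eq_mul, logNorm, powNorm, hz, hεsq, hexp]
        rw [hval]
        have h1 : β * s ^ (-r) = k * (-Real.log ε) := by
          rw [hβdef, Real.rpow_neg hs0.le]
          field_simp
        rw [h1]
        have := hu z
        linarith)
      (fun z hz => by
        have hval : (u + k • logNorm n + β • powNorm n) z = u z + β := by
          simp [Pi.add_apply, Pi.smul_apply, smul_eq_mul, logNorm, powNorm, hz]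
        rw [hval]
        have := hu z
        linarith)
      x hεx hx1.le
    have hval : (u + k • logNorm n + β • powNorm n) x = u x + k * Real.log ‖x‖ + β * Px := by
      simp [Pi.add_apply, Pi.smul_apply, smul_eq_mul, logNorm, hPxdef]
    rw [hval] at key
    have hβPx : β * Px ≤ η := by
      have habs : -(Real.log s * s ^ r) < η / (k * Px) := (abs_lt.1 hs1).1 |> fun _ => by
        have := le_abs_self (-(Real.log s * s ^ r))
        rw [abs_neg] at this
        linarith
      have h2 : β = (k / 2) * (-(Real.log s * s ^ r)) := by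
        rw [hβdef, hlogε]
        ring
      rw [h2]
      have h3 : (k / 2) * (-(Real.log s * s ^ r)) * Px ≤ (k / 2) * (η / (k * Px)) * Px := by
        apply mul_le_mul_of_nonneg_right _ hPx.le
        apply mul_le_mul_of_nonneg_left habs.le (by positivity)
      have h4 : (k / 2) * (η / (k * Px)) * Px = η / 2 := by
        field_simp
      rw [h4] at h3
      linarith
    linarith
  -- blow up against continuity at the origin
  have hu0 : ∀ᶠ x in 𝓝 (0 : Eu n), u x < u 0 + 1 :=
    huc.continuousAt.eventually (gt_mem_nhds (by linarith))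
  obtain ⟨δ, hδ, hball0⟩ := Metric.eventually_nhds_iff.1 hu0
  have hn0 : 0 < n := by omega
  set e : Eu n := (EuclideanSpace.basisFun (Fin n) ℝ) ⟨0, hn0⟩ with he
  have hen : ‖e‖ = 1 := by simp [he]
  set t := min (δ / 2) (min (1 / 2) (Real.exp (-((u 0 + 1) / k)))) with ht
  have htpos : 0 < t := lt_min (by linarith) (lt_min (by norm_num) (Real.exp_pos _))
  have ht1 : t ≤ 1 / 2 := (min_le_right _ _).trans (min_le_left _ _)
  have ht2 : t ≤ Real.exp (-((u 0 + 1) / k)) := (min_le_right _ _).trans (min_le_right _ _)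
  have ht3 : t ≤ δ / 2 := min_le_left _ _
  set x : Eu n := t • e with hx
  have hxn : ‖x‖ = t := by
    rw [hx, norm_smul, hen, mul_one, Real.norm_eq_abs, abs_of_pos htpos]
  have hx0 : x ≠ 0 := by
    intro h0
    rw [h0, norm_zero] at hxn
    linarith
  have h1 := hbound x hx0 (by rw [hxn]; linarith)
  have h2 : u x < u 0 + 1 := hball0 (by
    rw [dist_zero_right, hxn]
    linarith)
  rw [hxn] at h1
  have h3 : Real.log t ≤ -((u 0 + 1) / k) := by
    have := Real.log_le_log htpos ht2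
    rwa [Real.log_exp] at this
  have h4 : k * ((u 0 + 1) / k) = u 0 + 1 := by
    field_simp
  have h5 : k * ((u 0 + 1) / k) ≤ k * (-Real.log t) := by
    apply mul_le_mul_of_nonneg_left _ hk.le
    linarith
  linarith

/-- No positive entire solution when `n = 2` or when a weight is at most `-2`. -/
theorem no_solution (n : ℕ) (hn : 2 ≤ n) (A B p q : ℝ) (h : n = 2 ∨ A ≤ -2 ∨ B ≤ -2)
    (u v : Eu n → ℝ) : ¬ IsPositiveEntireSolution n A B p q u v := by
  intro hs
  rcases eq_or_lt_of_le hn with h2 | h3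
  · subst h2
    exact no_solution_plane A B p q u v hs
  · rcases h with h | hA | hB
    · omega
    · exact no_solution_low_weight (by omega) hA hs.contDiffOn_u hs.continuous_u hs.continuous_v
        hs.pos_u hs.pos_v hs.eq_u
    · exact no_solution_low_weight (by omega) hB hs.contDiffOn_v hs.continuous_v hs.continuous_u
        hs.pos_v hs.pos_u hs.eq_v

end Vale.Agent.P100
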